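import Mathlib
import Vale.Agent.P205.Profile

open Real Set
open scoped ContDiff

namespace Vale.Agent.Results.P205.TorusSymmetric

/-- A smooth Riemannian metric on the closed surface `ℝ²/ℤ²`, given by its lift to the plane: a
smooth field `g` of symmetric positive definite bilinear forms on `ℝ²` that is invariant under all
translations by vectors of `ℤ²`. -/
structure IsTorusMetric (g : ℝ × ℝ → (ℝ × ℝ) →L[ℝ] (ℝ × ℝ) →L[ℝ] ℝ) : Prop where
  smooth : ContDiff ℝ ∞ g
  symm : ∀ p u v, g p u v = g p v u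
  pos : ∀ p v, v ≠ 0 → 0 < g p v v
  periodic : ∀ (p : ℝ × ℝ) (m n : ℤ), g (p + ((m : ℝ), (n : ℝ))) = g p

/-- A one-parameter group of translations preserving a `ℤ²`-periodic continuous field preserves a
primitive integral direction. -/
lemma exists_integral_direction {g : ℝ × ℝ → (ℝ × ℝ) →L[ℝ] (ℝ × ℝ) →L[ℝ] ℝ} (hc : Continuous g)
    (hper : ∀ (p : ℝ × ℝ) (m n : ℤ), g (p + ((m : ℝ), (n : ℝ))) = g p)
    {v : ℝ × ℝ} (hv : v ≠ 0) (hinv : ∀ (t : ℝ) (p : ℝ × ℝ), g (p + t • v) = g p) :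
    ∃ a b : ℤ, IsCoprime a b ∧ ∀ (t : ℝ) (p : ℝ × ℝ), g (p + t • ((a : ℝ), (b : ℝ))) = g p := by
  by_cases h1 : v.1 = 0
  · have h2 : v.2 ≠ 0 := fun h2 => hv (Prod.ext h1 h2)
    refine ⟨0, 1, isCoprime_one_right, fun t p => ?_⟩
    have e : t • (((0 : ℤ) : ℝ), ((1 : ℤ) : ℝ)) = (t / v.2) • v := by
      ext
      · simp [h1]
      · simp [h2]
    rw [e]; exact hinv _ _
  · set s : ℝ := v.2 / v.1 with hs
    have hvs : ∀ t : ℝ, ∀ p, g (p + t • ((1 : ℝ), s)) = g p := by
      intro t p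
      have e : t • ((1 : ℝ), s) = (t / v.1) • v := by
        ext
        · simp [h1]
        · simp [hs]; ring
      rw [e]; exact hinv _ _
    by_cases hirr : Irrational s
    · refine ⟨0, 1, isCoprime_one_right, fun t p => ?_⟩
      have hcl : ∀ y : ℝ, ∀ p, g (p + ((0 : ℝ), y)) = g p := by
        -- the set of vertical translations preserving g is a closed subgroup
        let H : AddSubgroup ℝ :=
          { carrier := {y : ℝ | ∀ p, g (p + ((0 : ℝ), y)) = g p}
            zero_mem' := by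
              intro p
              have : ((0 : ℝ), (0 : ℝ)) = 0 := rfl
              rw [this, add_zero]
            add_mem' := by
              intro a b ha hb p
              have : p + ((0 : ℝ), a + b) = (p + ((0 : ℝ), a)) + ((0 : ℝ), b) := by
                ext <;> simp [add_assoc]
              rw [this, hb, ha]
            neg_mem' := by
              intro a ha p
              have := ha (p + ((0 : ℝ), -a))
              have e : p + ((0 : ℝ), -a) + ((0 : ℝ), a) = p := by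
                ext <;> simp
              rw [e] at this
              exact this.symm }
        have hHclosed : IsClosed (H : Set ℝ) := by
          have : (H : Set ℝ) = ⋂ p : ℝ × ℝ, {y : ℝ | g (p + ((0 : ℝ), y)) = g p} := by
            ext y; simp [H]
          rw [this]
          apply isClosed_iInter
          intro p
          exact isClosed_eq (hc.comp (by fun_prop)) continuous_const
        have h1H : (1 : ℝ) ∈ H := by
          intro p
          have := hper p 0 1
          simpa using this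
        have hsH : s ∈ H := by
          intro p
          have h3 := hvs 1 (p + (((-1 : ℤ) : ℝ), ((0 : ℤ) : ℝ)))
          have h4 := hper p (-1) 0
          have e : p + (((-1 : ℤ) : ℝ), ((0 : ℤ) : ℝ)) + (1 : ℝ) • ((1 : ℝ), s) = p + ((0:ℝ), s) := by
            ext <;> simp
          rw [e, h4] at h3
          exact h3
        have hdense : Dense (AddSubgroup.closure {s, (1:ℝ)} : Set ℝ) := by
          rw [dense_addSubgroupClosure_pair_iff]
          simpa using hirr
        have hle : AddSubgroup.closure {s, (1:ℝ)} ≤ H := by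
          rw [AddSubgroup.closure_le]
          intro y hy
          rcases hy with rfl | hy
          · exact hsH
          · rw [mem_singleton_iff] at hy
            rw [hy]; exact h1H
        have hHdense : Dense (H : Set ℝ) := hdense.mono hle
        intro y p
        have : y ∈ (H : Set ℝ) := by
          rw [← hHclosed.closure_eq]
          exact hHdense y
        exact this p
      have e : t • (((0 : ℤ) : ℝ), ((1 : ℤ) : ℝ)) = ((0 : ℝ), t) := by
        ext <;> simp
      rw [e]; exact hcl _ _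
    · have hrat : ∃ q : ℚ, (q : ℝ) = s := by
        by_contra hcon
        exact hirr (fun ⟨q, hq⟩ => hcon ⟨q, hq⟩)
      obtain ⟨q, hq⟩ := hrat
      refine ⟨q.den, q.num, ?_, fun t p => ?_⟩
      · have h3 := q.reduced
        rw [Int.isCoprime_iff_gcd_eq_one]
        show Nat.gcd (Int.natAbs (q.den : ℤ)) (Int.natAbs q.num) = 1
        rw [Int.natAbs_natCast, Nat.gcd_comm]
        exact h3
      · have hden : (q.den : ℝ) ≠ 0 := by exact_mod_cast q.den_nz
        have e : t • (((q.den : ℤ) : ℝ), ((q.num : ℤ) : ℝ)) = (t * q.den) • ((1 : ℝ), s) := by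
          ext
          · simp
          · simp only [Prod.smul_snd, smul_eq_mul]
            rw [← hq]
            rw [Rat.cast_def]
            field_simp
        rw [e]; exact hvs _ _

/-- Integer translation of a function with an affine quasi-period. -/
lemma add_int_of_add_one {A : ℝ → ℝ} {c : ℝ} (hA : ∀ x, A (x+1) = A x + c) (x : ℝ) (N : ℤ) :
    A (x + N) = A x + N * c := by
  have hp : Function.Periodic (fun x => A x - c * x) 1 := by
    intro x
    show A (x+1) - c * (x+1) = A x - c * x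
    rw [hA]; ring
  have := hp.int_mul N x
  simp only [mul_one] at this
  linarith

theorem exists_immersion {g : ℝ × ℝ → (ℝ × ℝ) →L[ℝ] (ℝ × ℝ) →L[ℝ] ℝ} (hg : IsTorusMetric g)
    {a b : ℤ} (hab : IsCoprime a b)
    (hinv : ∀ (t : ℝ) (p : ℝ × ℝ), g (p + t • ((a : ℝ), (b : ℝ))) = g p) :
    ∃ Φ : ℝ × ℝ → EuclideanSpace ℝ (Fin 4), ContDiff ℝ ∞ Φ ∧
      (∀ (p : ℝ × ℝ) (m n : ℤ), Φ (p + ((m : ℝ), (n : ℝ))) = Φ p) ∧
      ∀ p u w, inner ℝ (fderiv ℝ Φ p u) (fderiv ℝ Φ p w) = g p u w := by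
  obtain ⟨m, n, hmn⟩ := hab
  have hmnR : (m : ℝ) * a + n * b = 1 := by exact_mod_cast hmn
  set e1 : ℝ × ℝ := ((n : ℝ), -(m : ℝ)) with he1
  set e2 : ℝ × ℝ := ((a : ℝ), (b : ℝ)) with he2
  set E : ℝ → ℝ := fun x => g (x • e1) e1 e1 with hE
  set F : ℝ → ℝ := fun x => g (x • e1) e1 e2 with hF
  set G : ℝ → ℝ := fun x => g (x • e1) e2 e2 with hG
  have hgsm : ∀ u w : ℝ × ℝ, ContDiff ℝ ∞ (fun x : ℝ => g (x • e1) u w) := by
    intro u w
    have h1 : ContDiff ℝ ∞ (fun x : ℝ => g (x • e1)) := hg.smooth.comp (by fun_prop)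
    exact (h1.clm_apply contDiff_const).clm_apply contDiff_const
  have hgper : ∀ (x : ℝ), g ((x+1) • e1) = g (x • e1) := by
    intro x
    have : (x+1) • e1 = x • e1 + (((n : ℤ) : ℝ), ((-m : ℤ) : ℝ)) := by
      ext
      · simp [he1]; ring
      · simp [he1]; ring
    rw [this, hg.periodic]
  have he2ne : e2 ≠ 0 := by
    intro h
    have h1 : (a : ℝ) = 0 := congrArg Prod.fst h
    have h2 : (b : ℝ) = 0 := congrArg Prod.snd h
    rw [h1, h2] at hmnR
    simp at hmnR
  have hGpos : ∀ x, 0 < G x := fun x => hg.pos _ _ he2ne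
  have hdet : ∀ x, 0 < E x * G x - F x ^ 2 := by
    intro x
    set t : ℝ := - F x / G x with ht
    have hne : e1 + t • e2 ≠ 0 := by
      intro h
      have h1 : (n : ℝ) + t * a = 0 := congrArg Prod.fst h
      have h2 : -(m : ℝ) + t * b = 0 := congrArg Prod.snd h
      have : (m : ℝ) * a + n * b = 0 := by
        linear_combination b * h1 - a * h2
      linarith
    have h1 := hg.pos (x • e1) _ hne
    have hexp : g (x • e1) (e1 + t • e2) (e1 + t • e2) = E x + 2 * t * F x + t^2 * G x := by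
      simp only [map_add, map_smul, _root_.add_apply, _root_.smul_apply,
        smul_eq_mul, hE, hF, hG]
      rw [hg.symm (x • e1) e2 e1]
      ring
    rw [hexp] at h1
    have hG0 := (hGpos x).ne'
    have h3 : E x + 2 * t * F x + t^2 * G x = (E x * G x - F x ^ 2) / G x := by
      rw [ht]; field_simp; ring
    rw [h3] at h1
    exact (div_pos_iff_of_pos_right (hGpos x)).mp h1
  obtain ⟨k, m₁, m₂, r₁, r₂, A₁, A₂, hr₁, hr₂, hA₁, hA₂, pr₁, pr₂, pA₁, pA₂, hGe, hFe, hEe⟩ :=
    Vale.Agent.P205.exists_profile E F G (hgsm _ _) (hgsm _ _) (hgsm _ _)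
      (fun x => by simp only [hE, hgper]) (fun x => by simp only [hF, hgper])
      (fun x => by simp only [hG, hgper]) hGpos hdet
  set K : ℝ := 2 * π * k with hK
  -- adapted coordinates
  let ξ : (ℝ × ℝ) →L[ℝ] ℝ := (b : ℝ) • ContinuousLinearMap.fst ℝ ℝ ℝ - (a : ℝ) • ContinuousLinearMap.snd ℝ ℝ ℝ
  let η : (ℝ × ℝ) →L[ℝ] ℝ := (m : ℝ) • ContinuousLinearMap.fst ℝ ℝ ℝ + (n : ℝ) • ContinuousLinearMap.snd ℝ ℝ ℝ
  have hξ : ∀ p : ℝ × ℝ, ξ p = b * p.1 - a * p.2 := fun p => by simp [ξ]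
  have hη : ∀ p : ℝ × ℝ, η p = m * p.1 + n * p.2 := fun p => by simp [η]
  have hdecomp : ∀ p : ℝ × ℝ, p = ξ p • e1 + η p • e2 := by
    intro p
    ext
    · simp only [hξ, hη, he1, he2, Prod.fst_add, Prod.smul_fst, smul_eq_mul]
      linear_combination (-p.1) * hmnR
    · simp only [hξ, hη, he1, he2, Prod.snd_add, Prod.smul_snd, smul_eq_mul]
      linear_combination (-p.2) * hmnR
  let Φ : ℝ × ℝ → EuclideanSpace ℝ (Fin 4) := fun p => WithLp.toLp 2
    ![r₁ (ξ p) * cos (K * η p + A₁ (ξ p)), r₁ (ξ p) * sin (K * η p + A₁ (ξ p)),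
      r₂ (ξ p) * cos (K * η p + A₂ (ξ p)), r₂ (ξ p) * sin (K * η p + A₂ (ξ p))]
  have hξsm : ContDiff ℝ ∞ ξ := ξ.contDiff
  have hηsm : ContDiff ℝ ∞ η := η.contDiff
  have hΦsm : ContDiff ℝ ∞ Φ := by
    rw [contDiff_euclidean]
    intro i
    fin_cases i
    · exact (hr₁.comp hξsm).mul (Real.contDiff_cos.comp
        ((contDiff_const.mul hηsm).add (hA₁.comp hξsm)))
    · exact (hr₁.comp hξsm).mul (Real.contDiff_sin.comp
        ((contDiff_const.mul hηsm).add (hA₁.comp hξsm)))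
    · exact (hr₂.comp hξsm).mul (Real.contDiff_cos.comp
        ((contDiff_const.mul hηsm).add (hA₂.comp hξsm)))
    · exact (hr₂.comp hξsm).mul (Real.contDiff_sin.comp
        ((contDiff_const.mul hηsm).add (hA₂.comp hξsm)))
  have hder : ∀ (r : ℝ → ℝ) (p : ℝ × ℝ), ContDiff ℝ ∞ r →
      HasFDerivAt (fun q => r (ξ q)) (deriv r (ξ p) • ξ) p := by
    intro r p hr
    have h1 : HasDerivAt r (deriv r (ξ p)) (ξ p) := (hr.differentiable (by simp) _).hasDerivAt
    exact h1.comp_hasFDerivAt p ξ.hasFDerivAt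
  have hang : ∀ (A : ℝ → ℝ) (p : ℝ × ℝ), ContDiff ℝ ∞ A →
      HasFDerivAt (fun q => K * η q + A (ξ q)) (K • η + deriv A (ξ p) • ξ) p := by
    intro A p hA
    exact (η.hasFDerivAt.const_mul K).add (hder A p hA)
  have hcos : ∀ (r A : ℝ → ℝ) (p : ℝ × ℝ), ContDiff ℝ ∞ r → ContDiff ℝ ∞ A →
      HasFDerivAt (fun q => r (ξ q) * cos (K * η q + A (ξ q)))
        (r (ξ p) • (-sin (K * η p + A (ξ p)) • (K • η + deriv A (ξ p) • ξ))
          + cos (K * η p + A (ξ p)) • (deriv r (ξ p) • ξ)) p := by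
    intro r A p hr hA
    exact (hder r p hr).mul ((hang A p hA).cos)
  have hsin : ∀ (r A : ℝ → ℝ) (p : ℝ × ℝ), ContDiff ℝ ∞ r → ContDiff ℝ ∞ A →
      HasFDerivAt (fun q => r (ξ q) * sin (K * η q + A (ξ q)))
        (r (ξ p) • (cos (K * η p + A (ξ p)) • (K • η + deriv A (ξ p) • ξ))
          + sin (K * η p + A (ξ p)) • (deriv r (ξ p) • ξ)) p := by
    intro r A p hr hA
    exact (hder r p hr).mul ((hang A p hA).sin)
  have hcomp : ∀ p u (i : Fin 4), (fderiv ℝ Φ p u) i = fderiv ℝ (fun q => Φ q i) p u := by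
    intro p u i
    have h1 : DifferentiableAt ℝ Φ p := hΦsm.differentiable (by simp) p
    have h2 : HasFDerivAt (fun q => Φ q i)
        ((EuclideanSpace.proj i : EuclideanSpace ℝ (Fin 4) →L[ℝ] ℝ).comp (fderiv ℝ Φ p)) p :=
      (EuclideanSpace.proj i : EuclideanSpace ℝ (Fin 4) →L[ℝ] ℝ).hasFDerivAt.comp p h1.hasFDerivAt
    rw [h2.fderiv]
    rfl
  refine ⟨Φ, hΦsm, ?_, ?_⟩
  · intro p i j
    have h1 : ξ (p + ((i : ℝ), (j : ℝ))) = ξ p + ((b * i - a * j : ℤ) : ℝ) := by
      rw [map_add, hξ ((i : ℝ), (j : ℝ))]; push_cast; ring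
    have h2 : η (p + ((i : ℝ), (j : ℝ))) = η p + ((m * i + n * j : ℤ) : ℝ) := by
      rw [map_add, hη ((i : ℝ), (j : ℝ))]; push_cast; ring
    set N : ℤ := b * i - a * j with hN
    set N' : ℤ := m * i + n * j with hN'
    have hr₁' : r₁ (ξ p + N) = r₁ (ξ p) := by
      have := add_int_of_add_one (A := r₁) (c := 0) (fun x => by rw [pr₁]; ring) (ξ p) N
      rw [this]; ring
    have hr₂' : r₂ (ξ p + N) = r₂ (ξ p) := by
      have := add_int_of_add_one (A := r₂) (c := 0) (fun x => by rw [pr₂]; ring) (ξ p) N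
      rw [this]; ring
    have hθ₁ : K * (η p + N') + A₁ (ξ p + N) = (K * η p + A₁ (ξ p)) + ((k * N' + N * m₁ : ℤ) : ℝ) * (2*π) := by
      rw [add_int_of_add_one pA₁ (ξ p) N, hK]; push_cast; ring
    have hθ₂ : K * (η p + N') + A₂ (ξ p + N) = (K * η p + A₂ (ξ p)) + ((k * N' + N * m₂ : ℤ) : ℝ) * (2*π) := by
      rw [add_int_of_add_one pA₂ (ξ p) N, hK]; push_cast; ring
    show WithLp.toLp 2 _ = WithLp.toLp 2 _
    rw [h1, h2, hr₁', hr₂', hθ₁, hθ₂]
    simp only [Real.cos_add_int_mul_two_pi, Real.sin_add_int_mul_two_pi]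
  · intro p u w
    rw [PiLp.inner_apply]
    simp only [Fin.sum_univ_four, hcomp]
    have f0 : ∀ u, fderiv ℝ (fun q => Φ q 0) p u = _ := fun u => by
      rw [show (fun q => Φ q 0) = fun q => r₁ (ξ q) * cos (K * η q + A₁ (ξ q)) from rfl,
        (hcos r₁ A₁ p hr₁ hA₁).fderiv]
    have f1 : ∀ u, fderiv ℝ (fun q => Φ q 1) p u = _ := fun u => by
      rw [show (fun q => Φ q 1) = fun q => r₁ (ξ q) * sin (K * η q + A₁ (ξ q)) from rfl,
        (hsin r₁ A₁ p hr₁ hA₁).fderiv]
    have f2 : ∀ u, fderiv ℝ (fun q => Φ q 2) p u = _ := fun u => by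
      rw [show (fun q => Φ q 2) = fun q => r₂ (ξ q) * cos (K * η q + A₂ (ξ q)) from rfl,
        (hcos r₂ A₂ p hr₂ hA₂).fderiv]
    have f3 : ∀ u, fderiv ℝ (fun q => Φ q 3) p u = _ := fun u => by
      rw [show (fun q => Φ q 3) = fun q => r₂ (ξ q) * sin (K * η q + A₂ (ξ q)) from rfl,
        (hsin r₂ A₂ p hr₂ hA₂).fderiv]
    simp only [f0, f1, f2, f3]
    simp only [_root_.add_apply, _root_.smul_apply, smul_eq_mul,
      RCLike.inner_apply, conj_trivial]
    -- the right hand side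
    have hgp : g p = g (ξ p • e1) := by
      conv_lhs => rw [hdecomp p]
      exact hinv _ _
    have hR : g p u w = ξ u * ξ w * E (ξ p) + (ξ u * η w + η u * ξ w) * F (ξ p)
        + η u * η w * G (ξ p) := by
      rw [hgp]
      conv_lhs => rw [hdecomp u, hdecomp w]
      simp only [map_add, map_smul, _root_.add_apply, _root_.smul_apply,
        smul_eq_mul, hE, hF, hG]
      rw [hg.symm (ξ p • e1) e2 e1]
      ring
    rw [hR, ← hEe (ξ p), ← hFe (ξ p), ← hGe (ξ p)]
    have c1 := Real.sin_sq_add_cos_sq (K * η p + A₁ (ξ p))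
    have c2 := Real.sin_sq_add_cos_sq (K * η p + A₂ (ξ p))
    set S1 := sin (K * η p + A₁ (ξ p))
    set C1 := cos (K * η p + A₁ (ξ p))
    set S2 := sin (K * η p + A₂ (ξ p))
    set C2 := cos (K * η p + A₂ (ξ p))
    linear_combination
      (deriv r₁ (ξ p) ^2 * ξ u * ξ w + r₁ (ξ p)^2 * (K * η u + deriv A₁ (ξ p) * ξ u)
        * (K * η w + deriv A₁ (ξ p) * ξ w)) * c1
      + (deriv r₂ (ξ p) ^2 * ξ u * ξ w + r₂ (ξ p)^2 * (K * η u + deriv A₂ (ξ p) * ξ u)
        * (K * η w + deriv A₂ (ξ p) * ξ w)) * c2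

/-- Every smooth Riemannian metric on the torus `ℝ²/ℤ²` which is invariant under a nontrivial
one-parameter group of translations of the torus admits a smooth isometric immersion into
Euclidean `ℝ⁴`. -/
theorem result (g : ℝ × ℝ → (ℝ × ℝ) →L[ℝ] (ℝ × ℝ) →L[ℝ] ℝ) (hg : IsTorusMetric g)
    (v : ℝ × ℝ) (hv : v ≠ 0) (hinv : ∀ (t : ℝ) (p : ℝ × ℝ), g (p + t • v) = g p) :
    ∃ Φ : ℝ × ℝ → EuclideanSpace ℝ (Fin 4), ContDiff ℝ ∞ Φ ∧
      (∀ (p : ℝ × ℝ) (m n : ℤ), Φ (p + ((m : ℝ), (n : ℝ))) = Φ p) ∧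
      ∀ p u w, inner ℝ (fderiv ℝ Φ p u) (fderiv ℝ Φ p w) = g p u w := by
  obtain ⟨a, b, hab, hinv'⟩ :=
    exists_integral_direction hg.smooth.continuous hg.periodic hv hinv
  exact exists_immersion hg hab hinv'

end Vale.Agent.Results.P205.TorusSymmetric
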